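import Crest.Agent.Helper26.PL.OneDim

/-!
# Prékopa–Leindler inequality (midpoint form) in `ℝ^d`

Helper library for row 82 (package (P)).  Mathlib only.

* `prekopa_leindler_pi` : on `Fin d → ℝ`;
* `prekopa_leindler_euclidean` : on `EuclideanSpace ℝ (Fin d)`;
-/

set_option autoImplicit false
open MeasureTheory Set
open scoped ENNReal NNReal

namespace Crest.Agent.Helper26.PL

/-- **Prékopa–Leindler inequality** (midpoint form) on `Fin d → ℝ`: if
`f x * g y ≤ h ((x + y) / 2) ^ 2` for all `x, y`, then `(∫ f) * (∫ g) ≤ (∫ h) ^ 2`. -/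
theorem prekopa_leindler_pi : ∀ (d : ℕ) (f g h : (Fin d → ℝ) → ℝ≥0∞), Measurable f →
    Measurable g → Measurable h → (∀ x y, f x * g y ≤ h ((1 / 2 : ℝ) • (x + y)) ^ 2) →
    (∫⁻ x, f x) * (∫⁻ y, g y) ≤ (∫⁻ z, h z) ^ 2 := by
  intro d
  induction d with
  | zero =>
    intro f g h hf hg hh H
    have hv : (volume : Measure (Fin 0 → ℝ)) = Measure.dirac 0 := Measure.volume_pi_eq_dirac 0
    rw [hv, lintegral_dirac' _ hf, lintegral_dirac' _ hg, lintegral_dirac' _ hh]
    have := H 0 0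
    simpa using this
  | succ d ih =>
    intro f g h hf hg hh H
    set e := MeasurableEquiv.piFinSuccAbove (fun _ : Fin (d + 1) => ℝ) 0 with he
    have hmp : MeasurePreserving e.symm volume volume :=
      (volume_preserving_piFinSuccAbove (fun _ : Fin (d + 1) => ℝ) 0).symm
    have hint : ∀ φ : (Fin (d + 1) → ℝ) → ℝ≥0∞, Measurable φ →
        ∫⁻ x, φ x = ∫⁻ s : ℝ, ∫⁻ x' : Fin d → ℝ, φ (e.symm (s, x')) := by
      intro φ hφ
      rw [← hmp.lintegral_comp hφ, Measure.volume_eq_prod]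
      exact lintegral_prod (fun p => φ (e.symm p)) (hφ.comp e.symm.measurable).aemeasurable
    have hslice : ∀ φ : (Fin (d + 1) → ℝ) → ℝ≥0∞, Measurable φ →
        Measurable fun s : ℝ => ∫⁻ x' : Fin d → ℝ, φ (e.symm (s, x')) := by
      intro φ hφ
      exact (hφ.comp e.symm.measurable).lintegral_prod_right'
    have hlin : ∀ (s t : ℝ) (x' y' : Fin d → ℝ),
        (1 / 2 : ℝ) • (e.symm (s, x') + e.symm (t, y'))
          = e.symm ((s + t) / 2, (1 / 2 : ℝ) • (x' + y')) := by
      intro s t x' y'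
      ext i
      refine Fin.cases ?_ (fun j => ?_) i
      · simp [he, MeasurableEquiv.piFinSuccAbove]
        ring
      · simp [he, MeasurableEquiv.piFinSuccAbove]
        ring
    rw [hint f hf, hint g hg, hint h hh]
    refine prekopa_leindler_real _ _ _ (hslice f hf) (hslice g hg) (hslice h hh) (fun s t => ?_)
    refine ih (fun x' => f (e.symm (s, x'))) (fun y' => g (e.symm (t, y')))
      (fun z' => h (e.symm ((s + t) / 2, z')))
      (hf.comp (e.symm.measurable.comp measurable_prodMk_left))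
      (hg.comp (e.symm.measurable.comp measurable_prodMk_left))
      (hh.comp (e.symm.measurable.comp measurable_prodMk_left)) (fun x' y' => ?_)
    rw [← hlin]
    exact H _ _

/-- **Prékopa–Leindler inequality** (midpoint form) on `EuclideanSpace ℝ (Fin d)`. -/
theorem prekopa_leindler_euclidean (d : ℕ) (f g h : EuclideanSpace ℝ (Fin d) → ℝ≥0∞)
    (hf : Measurable f) (hg : Measurable g) (hh : Measurable h)
    (H : ∀ x y, f x * g y ≤ h ((1 / 2 : ℝ) • (x + y)) ^ 2) :
    (∫⁻ x, f x) * (∫⁻ y, g y) ≤ (∫⁻ z, h z) ^ 2 := by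
  have hmp := PiLp.volume_preserving_toLp (Fin d)
  rw [← hmp.lintegral_comp hf, ← hmp.lintegral_comp hg, ← hmp.lintegral_comp hh]
  refine prekopa_leindler_pi d _ _ _ (hf.comp hmp.measurable) (hg.comp hmp.measurable)
    (hh.comp hmp.measurable) (fun x y => ?_)
  have := H (WithLp.toLp 2 x) (WithLp.toLp 2 y)
  simpa using this

/-- **Prékopa–Leindler inequality** (midpoint form) on a finite-dimensional real inner product
space. -/
theorem prekopa_leindler_inner {E : Type*} [NormedAddCommGroup E] [InnerProductSpace ℝ E]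
    [FiniteDimensional ℝ E] [MeasurableSpace E] [BorelSpace E] (f g h : E → ℝ≥0∞)
    (hf : Measurable f) (hg : Measurable g) (hh : Measurable h)
    (H : ∀ x y, f x * g y ≤ h ((1 / 2 : ℝ) • (x + y)) ^ 2) :
    (∫⁻ x, f x) * (∫⁻ y, g y) ≤ (∫⁻ z, h z) ^ 2 := by
  have hmp := (stdOrthonormalBasis ℝ E).measurePreserving_repr_symm
  rw [← hmp.lintegral_comp hf, ← hmp.lintegral_comp hg, ← hmp.lintegral_comp hh]
  refine prekopa_leindler_euclidean _ _ _ _ (hf.comp hmp.measurable) (hg.comp hmp.measurable)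
    (hh.comp hmp.measurable) (fun x y => ?_)
  have := H ((stdOrthonormalBasis ℝ E).repr.symm x) ((stdOrthonormalBasis ℝ E).repr.symm y)
  simpa using this

/-- Set-restricted form of the midpoint Prékopa–Leindler inequality: if `(A + B) / 2 ⊆ C` and
`f x * g y ≤ h ((x + y) / 2) ^ 2` for `x ∈ A`, `y ∈ B`, then
`(∫_A f) * (∫_B g) ≤ (∫_C h) ^ 2`. -/
theorem prekopa_leindler_inner_set {E : Type*} [NormedAddCommGroup E] [InnerProductSpace ℝ E]
    [FiniteDimensional ℝ E] [MeasurableSpace E] [BorelSpace E] {A B C : Set E}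
    (hA : MeasurableSet A) (hB : MeasurableSet B) (hC : MeasurableSet C) (f g h : E → ℝ≥0∞)
    (hf : Measurable f) (hg : Measurable g) (hh : Measurable h)
    (hABC : ∀ x ∈ A, ∀ y ∈ B, (1 / 2 : ℝ) • (x + y) ∈ C)
    (H : ∀ x ∈ A, ∀ y ∈ B, f x * g y ≤ h ((1 / 2 : ℝ) • (x + y)) ^ 2) :
    (∫⁻ x in A, f x) * (∫⁻ y in B, g y) ≤ (∫⁻ z in C, h z) ^ 2 := by
  rw [← lintegral_indicator hA, ← lintegral_indicator hB, ← lintegral_indicator hC]
  refine prekopa_leindler_inner _ _ _ (hf.indicator hA) (hg.indicator hB) (hh.indicator hC)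
    (fun x y => ?_)
  by_cases hx : x ∈ A
  · by_cases hy : y ∈ B
    · rw [indicator_of_mem hx, indicator_of_mem hy, indicator_of_mem (hABC x hx y hy)]
      exact H x hx y hy
    · rw [indicator_of_notMem hy]; simp
  · rw [indicator_of_notMem hx]; simp

/-- Real-valued (`ENNReal.ofReal`) form of the midpoint Prékopa–Leindler inequality. -/
theorem prekopa_leindler_inner_ofReal {E : Type*} [NormedAddCommGroup E] [InnerProductSpace ℝ E]
    [FiniteDimensional ℝ E] [MeasurableSpace E] [BorelSpace E] (f g h : E → ℝ)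
    (hf : Measurable f) (hg : Measurable g) (hh : Measurable h)
    (hf0 : ∀ x, 0 ≤ f x) (hh0 : ∀ x, 0 ≤ h x)
    (H : ∀ x y, f x * g y ≤ h ((1 / 2 : ℝ) • (x + y)) ^ 2) :
    (∫⁻ x, ENNReal.ofReal (f x)) * (∫⁻ y, ENNReal.ofReal (g y))
      ≤ (∫⁻ z, ENNReal.ofReal (h z)) ^ 2 := by
  refine prekopa_leindler_inner _ _ _ hf.ennreal_ofReal hg.ennreal_ofReal hh.ennreal_ofReal
    (fun x y => ?_)
  rw [← ENNReal.ofReal_mul (hf0 x), ← ENNReal.ofReal_pow (hh0 _)]
  exact ENNReal.ofReal_le_ofReal (H x y)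

/-- Bochner-integral form of the midpoint Prékopa–Leindler inequality for nonnegative
measurable real functions, `h` integrable. -/
theorem prekopa_leindler_inner_integral {E : Type*} [NormedAddCommGroup E]
    [InnerProductSpace ℝ E] [FiniteDimensional ℝ E] [MeasurableSpace E] [BorelSpace E]
    (f g h : E → ℝ) (hf : Measurable f) (hg : Measurable g) (hh : Measurable h)
    (hhi : Integrable h) (hf0 : ∀ x, 0 ≤ f x) (hg0 : ∀ x, 0 ≤ g x) (hh0 : ∀ x, 0 ≤ h x)
    (H : ∀ x y, f x * g y ≤ h ((1 / 2 : ℝ) • (x + y)) ^ 2) :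
    (∫ x, f x) * (∫ y, g y) ≤ (∫ z, h z) ^ 2 := by
  have key := prekopa_leindler_inner_ofReal f g h hf hg hh hf0 hh0 H
  have hI : ∀ φ : E → ℝ, Measurable φ → (∀ x, 0 ≤ φ x) →
      ∫ x, φ x = (∫⁻ x, ENNReal.ofReal (φ x)).toReal := by
    intro φ hφ hφ0
    exact integral_eq_lintegral_of_nonneg_ae (Filter.Eventually.of_forall hφ0)
      hφ.aestronglyMeasurable
  rw [hI f hf hf0, hI g hg hg0, hI h hh hh0, ← ENNReal.toReal_mul, ← ENNReal.toReal_pow]
  refine ENNReal.toReal_mono ?_ key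
  have : ∫⁻ z, ENNReal.ofReal (h z) ≠ ∞ := by
    have := hhi.hasFiniteIntegral
    rw [hasFiniteIntegral_iff_ofReal (Filter.Eventually.of_forall hh0)] at this
    exact this.ne
  exact ENNReal.pow_ne_top this

end Crest.Agent.Helper26.PL
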