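import Mathlib

/-!
# One-dimensional Brunn–Minkowski and Prékopa–Leindler (midpoint form)

Helper library for row 82 (package (P)).  Mathlib only.

* `volume_add_le_of_add_subset` : for nonempty measurable `A B : Set ℝ` with `A + B ⊆ C`,
  `volume A + volume B ≤ volume C`.
* `prekopa_leindler_real` : for measurable `f g h : ℝ → ℝ≥0∞` with
  `f x * g y ≤ h ((x + y) / 2) ^ 2`, `(∫⁻ f) * (∫⁻ g) ≤ (∫⁻ h) ^ 2`.
-/

set_option autoImplicit false
open MeasureTheory Set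
open scoped ENNReal NNReal

namespace Crest.Agent.Helper26.PL

/-- 1-D Brunn–Minkowski for nonempty compact sets. -/
theorem volume_add_le_of_isCompact {A B C : Set ℝ} (hA : IsCompact A) (hB : IsCompact B)
    (hAne : A.Nonempty) (hBne : B.Nonempty) (hsub : ∀ x ∈ A, ∀ y ∈ B, x + y ∈ C) :
    volume A + volume B ≤ volume C := by
  obtain ⟨a, haA, ha⟩ := hA.exists_isGreatest hAne
  obtain ⟨b, hbB, hb⟩ := hB.exists_isLeast hBne
  have h1 : (fun z : ℝ => z + (-b)) ⁻¹' A ⊆ C ∩ Iic (a + b) := by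
    intro z hz
    have hz' : z + (-b) ∈ A := hz
    refine ⟨?_, ?_⟩
    · have := hsub _ hz' b hbB
      simpa using this
    · have := ha hz'
      simp only [mem_Iic]
      linarith
  have h2 : ((fun z : ℝ => z + (-a)) ⁻¹' B) \ {a + b} ⊆ C \ Iic (a + b) := by
    rintro z ⟨hz, hz2⟩
    have hz' : z + (-a) ∈ B := hz
    refine ⟨?_, ?_⟩
    · have := hsub a haA _ hz'
      simpa using this
    · have := hb hz'
      simp only [mem_Iic, not_le]
      have hne : z ≠ a + b := by simpa using hz2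
      rcases lt_or_gt_of_ne hne with h | h
      · linarith
      · exact h
  have e1 : volume ((fun z : ℝ => z + (-b)) ⁻¹' A) = volume A :=
    measure_preimage_add_right volume (-b) A
  have e2 : volume (((fun z : ℝ => z + (-a)) ⁻¹' B) \ {a + b}) = volume B := by
    rw [measure_sdiff_null (Real.volume_singleton)]
    exact measure_preimage_add_right volume (-a) B
  calc volume A + volume B
      = volume ((fun z : ℝ => z + (-b)) ⁻¹' A)
          + volume (((fun z : ℝ => z + (-a)) ⁻¹' B) \ {a + b}) := by rw [e1, e2]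
    _ ≤ volume (C ∩ Iic (a + b)) + volume (C \ Iic (a + b)) :=
        add_le_add (measure_mono h1) (measure_mono h2)
    _ = volume C := measure_inter_add_sdiff C measurableSet_Iic

/-- Inner approximation of a nonempty measurable set by nonempty compact sets. -/
theorem volume_le_iSup_compact_nonempty {A : Set ℝ} (hA : MeasurableSet A) (hAne : A.Nonempty) :
    volume A ≤ ⨆ K : {K : Set ℝ // K ⊆ A ∧ IsCompact K ∧ K.Nonempty}, volume K.1 := by
  obtain ⟨a₀, ha₀⟩ := hAne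
  refine le_of_forall_lt fun r hr => ?_
  obtain ⟨K, hKA, hK, hrK⟩ := hA.exists_lt_isCompact hr
  have hK' : K ∪ {a₀} ⊆ A ∧ IsCompact (K ∪ {a₀}) ∧ (K ∪ {a₀}).Nonempty :=
    ⟨union_subset hKA (singleton_subset_iff.mpr ha₀), hK.union isCompact_singleton,
      ⟨a₀, Or.inr rfl⟩⟩
  have h1 : volume K ≤ volume (K ∪ {a₀}) := measure_mono subset_union_left
  have h2 : volume (K ∪ {a₀}) ≤
      ⨆ K : {K : Set ℝ // K ⊆ A ∧ IsCompact K ∧ K.Nonempty}, volume K.1 :=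
    le_iSup (fun K : {K : Set ℝ // K ⊆ A ∧ IsCompact K ∧ K.Nonempty} => volume K.1)
      ⟨K ∪ {a₀}, hK'⟩
  exact lt_of_lt_of_le hrK (h1.trans h2)

/-- 1-D Brunn–Minkowski: if `A`, `B` are nonempty measurable subsets of `ℝ` and `A + B ⊆ C`
then `|A| + |B| ≤ |C|`. -/
theorem volume_add_le_of_add_subset {A B C : Set ℝ} (hA : MeasurableSet A) (hB : MeasurableSet B)
    (hAne : A.Nonempty) (hBne : B.Nonempty) (hsub : ∀ x ∈ A, ∀ y ∈ B, x + y ∈ C) :
    volume A + volume B ≤ volume C := by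
  have hA' := volume_le_iSup_compact_nonempty hA hAne
  have hB' := volume_le_iSup_compact_nonempty hB hBne
  obtain ⟨a₀, ha₀⟩ := hAne
  obtain ⟨b₀, hb₀⟩ := hBne
  have : Nonempty {K : Set ℝ // K ⊆ A ∧ IsCompact K ∧ K.Nonempty} :=
    ⟨⟨{a₀}, singleton_subset_iff.mpr ha₀, isCompact_singleton, singleton_nonempty _⟩⟩
  have : Nonempty {K : Set ℝ // K ⊆ B ∧ IsCompact K ∧ K.Nonempty} :=
    ⟨⟨{b₀}, singleton_subset_iff.mpr hb₀, isCompact_singleton, singleton_nonempty _⟩⟩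
  refine le_trans (add_le_add hA' hB') ?_
  refine ENNReal.iSup_add_iSup_le fun K₁ K₂ => ?_
  exact volume_add_le_of_isCompact K₁.2.2.1 K₂.2.2.1 K₁.2.2.2 K₂.2.2.2
    (fun x hx y hy => hsub x (K₁.2.1 hx) y (K₂.2.1 hy))

/-- Layer cake for the truncation at level `1` of an `ℝ≥0∞`-valued function. -/
theorem lintegral_min_one_eq {α : Type*} [MeasurableSpace α] (μ : Measure α) (f : α → ℝ≥0∞)
    (hf : Measurable f) :
    ∫⁻ x, min (f x) 1 ∂μ = ∫⁻ t in Ioo (0 : ℝ) 1, μ {x | ENNReal.ofReal t < f x} := by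
  have hm : Measurable fun x => (min (f x) 1).toReal :=
    (hf.min measurable_const).ennreal_toReal
  have h := lintegral_eq_lintegral_meas_lt μ (f := fun x => (min (f x) 1).toReal)
    (Filter.Eventually.of_forall fun x => ENNReal.toReal_nonneg) hm.aemeasurable
  have h1 : ∀ x, ENNReal.ofReal (min (f x) 1).toReal = min (f x) 1 := fun x =>
    ENNReal.ofReal_toReal (ne_top_of_le_ne_top ENNReal.one_ne_top (min_le_right _ _))
  simp only [h1] at h
  rw [h, ← Ioo_union_Ici_eq_Ioi (zero_lt_one' ℝ),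
    lintegral_union measurableSet_Ici
      (Set.disjoint_left.mpr fun x hx hx' => not_lt.mpr hx' hx.2)]
  have h2 : ∫⁻ t in Ici (1 : ℝ), μ {a | t < (min (f a) 1).toReal} = 0 := by
    have : ∀ t ∈ Ici (1 : ℝ), μ {a | t < (min (f a) 1).toReal} = 0 := by
      intro t ht
      have : {a | t < (min (f a) 1).toReal} = ∅ := by
        ext a
        simp only [mem_ofPred_eq, mem_empty_iff_false, iff_false, not_lt]
        have : (min (f a) 1).toReal ≤ (1 : ℝ≥0∞).toReal :=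
          ENNReal.toReal_mono ENNReal.one_ne_top (min_le_right _ _)
        simp only [ENNReal.toReal_one] at this
        exact this.trans ht
      rw [this, measure_empty]
    rw [setLIntegral_congr_fun measurableSet_Ici this]
    simp
  rw [h2, add_zero]
  refine setLIntegral_congr_fun measurableSet_Ioo (fun t ht => ?_)
  congr 1
  ext x
  simp only [mem_ofPred_eq]
  have hne : min (f x) 1 ≠ ∞ := ne_top_of_le_ne_top ENNReal.one_ne_top (min_le_right _ _)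
  rw [← ENNReal.ofReal_lt_iff_lt_toReal ht.1.le hne, lt_min_iff]
  have : ENNReal.ofReal t < 1 := by
    rw [ENNReal.ofReal_lt_one]; exact ht.2
  simp [this]

/-- Normalised one-dimensional Prékopa–Leindler (additive form): if `f, g ≤ 1` have supremum `1`
and `f x * g y ≤ h (x + y) ^ 2`, then `∫ f + ∫ g ≤ ∫ h`. -/
theorem pl_one_normalised (f g h : ℝ → ℝ≥0∞) (hf : Measurable f) (hg : Measurable g)
    (hh : Measurable h) (hf1 : ∀ x, f x ≤ 1) (hg1 : ∀ x, g x ≤ 1)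
    (hfs : ∀ t : ℝ≥0∞, t < 1 → ∃ x, t < f x) (hgs : ∀ t : ℝ≥0∞, t < 1 → ∃ y, t < g y)
    (H : ∀ x y, f x * g y ≤ h (x + y) ^ 2) :
    (∫⁻ x, f x) + (∫⁻ y, g y) ≤ ∫⁻ z, h z := by
  have hF : ∫⁻ x, f x = ∫⁻ t in Ioo (0 : ℝ) 1, volume {x | ENNReal.ofReal t < f x} := by
    rw [← lintegral_min_one_eq volume f hf]
    exact lintegral_congr fun x => (min_eq_left (hf1 x)).symm
  have hG : ∫⁻ x, g x = ∫⁻ t in Ioo (0 : ℝ) 1, volume {x | ENNReal.ofReal t < g x} := by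
    rw [← lintegral_min_one_eq volume g hg]
    exact lintegral_congr fun x => (min_eq_left (hg1 x)).symm
  have hH : ∫⁻ t in Ioo (0 : ℝ) 1, volume {x | ENNReal.ofReal t < h x} ≤ ∫⁻ z, h z := by
    rw [← lintegral_min_one_eq volume h hh]
    exact lintegral_mono fun x => min_le_left _ _
  rw [hF, hG]
  refine le_trans ?_ hH
  refine le_trans (le_lintegral_add _ _) ?_
  refine setLIntegral_mono' measurableSet_Ioo (fun t ht => ?_)
  have ht1 : ENNReal.ofReal t < 1 := by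
    rw [ENNReal.ofReal_lt_one]; exact ht.2
  refine volume_add_le_of_add_subset (hf measurableSet_Ioi) (hg measurableSet_Ioi)
    (hfs _ ht1) (hgs _ ht1) (fun x hx y hy => ?_)
  have hx' : ENNReal.ofReal t < f x := hx
  have hy' : ENNReal.ofReal t < g y := hy
  show ENNReal.ofReal t < h (x + y)
  by_contra hcon
  have hcon' : h (x + y) ≤ ENNReal.ofReal t := not_lt.mp hcon
  have h1 : h (x + y) ^ 2 ≤ ENNReal.ofReal t ^ 2 := pow_le_pow_left' hcon' 2
  have h2 : ENNReal.ofReal t ^ 2 < f x * g y := by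
    rw [sq]; exact ENNReal.mul_lt_mul hx' hy'
  exact absurd (H x y) (not_le.mpr (lt_of_le_of_lt h1 h2))

/-- `∫ h (z / 2) dz = 2 ∫ h`. -/
theorem lintegral_comp_half (h : ℝ → ℝ≥0∞) (hh : Measurable h) :
    ∫⁻ z, h (z / 2) = 2 * ∫⁻ z, h z := by
  have hm : Measure.map (fun z : ℝ => (1 / 2 : ℝ) * z) volume
      = ENNReal.ofReal |(1 / 2 : ℝ)⁻¹| • volume := Real.map_volume_mul_left (by norm_num)
  have h1 : ∫⁻ z, h (z / 2) = ∫⁻ z, h z ∂(Measure.map (fun z : ℝ => (1 / 2 : ℝ) * z) volume) := by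
    rw [lintegral_map hh (measurable_const_mul _)]
    refine lintegral_congr fun z => ?_
    congr 1; ring
  rw [h1, hm, lintegral_smul_measure]
  congr 1
  norm_num

/-- AM–GM in `ℝ≥0∞`. -/
theorem ennreal_mul_le_sq_of_add_le {X Y Z : ℝ≥0∞} (h : X + Y ≤ 2 * Z) : X * Y ≤ Z ^ 2 := by
  by_cases hZ : Z = ∞
  · simp [hZ]
  have h2Z : 2 * Z ≠ ∞ := ENNReal.mul_ne_top (by norm_num) hZ
  have hX : X ≠ ∞ := ne_top_of_le_ne_top h2Z (le_trans le_self_add h)
  have hY : Y ≠ ∞ := ne_top_of_le_ne_top h2Z (le_trans le_add_self h)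
  lift X to ℝ≥0 using hX
  lift Y to ℝ≥0 using hY
  lift Z to ℝ≥0 using hZ
  have h' : (X : ℝ) + Y ≤ 2 * Z := by exact_mod_cast h
  have h'' : (X : ℝ) * Y ≤ (Z : ℝ) ^ 2 := by
    nlinarith [sq_nonneg ((X : ℝ) - Y), X.coe_nonneg, Y.coe_nonneg, Z.coe_nonneg]
  exact_mod_cast h''

/-- One-dimensional Prékopa–Leindler when `f`, `g` have finite nonzero suprema `a`, `b`. -/
theorem pl_one_of_sup (f g h : ℝ → ℝ≥0∞) (hf : Measurable f) (hg : Measurable g)
    (hh : Measurable h) (a b : ℝ≥0∞) (ha0 : a ≠ 0) (ha : a ≠ ∞) (hb0 : b ≠ 0) (hb : b ≠ ∞)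
    (hfa : ∀ x, f x ≤ a) (hgb : ∀ y, g y ≤ b)
    (hfs : ∀ t, t < a → ∃ x, t < f x) (hgs : ∀ t, t < b → ∃ y, t < g y)
    (H : ∀ x y, f x * g y ≤ h ((x + y) / 2) ^ 2) :
    (∫⁻ x, f x) * (∫⁻ y, g y) ≤ (∫⁻ z, h z) ^ 2 := by
  have hα0 : a⁻¹ ≠ 0 := ENNReal.inv_ne_zero.mpr ha
  have hαt : a⁻¹ ≠ ∞ := ENNReal.inv_ne_top.mpr ha0
  have hβ0 : b⁻¹ ≠ 0 := ENNReal.inv_ne_zero.mpr hb
  have hβt : b⁻¹ ≠ ∞ := ENNReal.inv_ne_top.mpr hb0
  obtain ⟨σ, hσ⟩ : ∃ σ : ℝ≥0∞, σ ^ 2 = a⁻¹ * b⁻¹ := by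
    refine ⟨ENNReal.ofReal (Real.sqrt ((a⁻¹).toReal * (b⁻¹).toReal)), ?_⟩
    rw [← ENNReal.ofReal_pow (Real.sqrt_nonneg _), Real.sq_sqrt (by positivity),
      ENNReal.ofReal_mul ENNReal.toReal_nonneg, ENNReal.ofReal_toReal hαt,
      ENNReal.ofReal_toReal hβt]
  have hh2 : Measurable fun z : ℝ => h (z / 2) := hh.comp (measurable_id.div_const 2)
  have key := pl_one_normalised (fun x => a⁻¹ * f x) (fun y => b⁻¹ * g y)
    (fun z => σ * h (z / 2)) (hf.const_mul _) (hg.const_mul _) (hh2.const_mul _) ?_ ?_ ?_ ?_ ?_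
  · rw [lintegral_const_mul _ hf, lintegral_const_mul _ hg, lintegral_const_mul _ hh2,
      lintegral_comp_half h hh] at key
    have key2 : (a⁻¹ * ∫⁻ x, f x) * (b⁻¹ * ∫⁻ y, g y) ≤ (σ * ∫⁻ z, h z) ^ 2 := by
      refine ennreal_mul_le_sq_of_add_le (le_trans key (le_of_eq ?_))
      ring
    have key3 : (a⁻¹ * b⁻¹) * ((∫⁻ x, f x) * (∫⁻ y, g y)) ≤ (a⁻¹ * b⁻¹) * (∫⁻ z, h z) ^ 2 := by
      calc (a⁻¹ * b⁻¹) * ((∫⁻ x, f x) * (∫⁻ y, g y))
          = (a⁻¹ * ∫⁻ x, f x) * (b⁻¹ * ∫⁻ y, g y) := by ring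
        _ ≤ (σ * ∫⁻ z, h z) ^ 2 := key2
        _ = (a⁻¹ * b⁻¹) * (∫⁻ z, h z) ^ 2 := by rw [mul_pow, hσ]
    exact (ENNReal.mul_le_mul_iff_right (mul_ne_zero hα0 hβ0) (ENNReal.mul_ne_top hαt hβt)).mp key3
  · intro x
    calc a⁻¹ * f x ≤ a⁻¹ * a := by gcongr; exact hfa x
      _ = 1 := ENNReal.inv_mul_cancel ha0 ha
  · intro y
    calc b⁻¹ * g y ≤ b⁻¹ * b := by gcongr; exact hgb y
      _ = 1 := ENNReal.inv_mul_cancel hb0 hb
  · intro t ht
    have hta : a * t < a := by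
      calc a * t < a * 1 := (ENNReal.mul_lt_mul_iff_right ha0 ha).mpr ht
        _ = a := mul_one a
    obtain ⟨x, hx⟩ := hfs (a * t) hta
    refine ⟨x, ?_⟩
    calc t = a⁻¹ * (a * t) := by rw [← mul_assoc, ENNReal.inv_mul_cancel ha0 ha, one_mul]
      _ < a⁻¹ * f x := (ENNReal.mul_lt_mul_iff_right hα0 hαt).mpr hx
  · intro t ht
    have htb : b * t < b := by
      calc b * t < b * 1 := (ENNReal.mul_lt_mul_iff_right hb0 hb).mpr ht
        _ = b := mul_one b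
    obtain ⟨y, hy⟩ := hgs (b * t) htb
    refine ⟨y, ?_⟩
    calc t = b⁻¹ * (b * t) := by rw [← mul_assoc, ENNReal.inv_mul_cancel hb0 hb, one_mul]
      _ < b⁻¹ * g y := (ENNReal.mul_lt_mul_iff_right hβ0 hβt).mpr hy
  · intro x y
    calc a⁻¹ * f x * (b⁻¹ * g y) = (a⁻¹ * b⁻¹) * (f x * g y) := by ring
      _ ≤ (a⁻¹ * b⁻¹) * h ((x + y) / 2) ^ 2 := by gcongr; exact H x y
      _ = (σ * h ((x + y) / 2)) ^ 2 := by rw [mul_pow, hσ]

/-- One-dimensional Prékopa–Leindler for bounded `f`, `g`. -/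
theorem pl_one_bounded (f g h : ℝ → ℝ≥0∞) (hf : Measurable f) (hg : Measurable g)
    (hh : Measurable h) (n : ℝ≥0∞) (hn : n ≠ ∞) (hfn : ∀ x, f x ≤ n) (hgn : ∀ y, g y ≤ n)
    (H : ∀ x y, f x * g y ≤ h ((x + y) / 2) ^ 2) :
    (∫⁻ x, f x) * (∫⁻ y, g y) ≤ (∫⁻ z, h z) ^ 2 := by
  by_cases ha0 : (⨆ x, f x) = 0
  · have : ∀ x, f x = 0 := fun x => le_antisymm (ha0 ▸ le_iSup f x) bot_le
    simp [this]
  by_cases hb0 : (⨆ y, g y) = 0
  · have : ∀ y, g y = 0 := fun y => le_antisymm (hb0 ▸ le_iSup g y) bot_le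
    simp [this]
  exact pl_one_of_sup f g h hf hg hh (⨆ x, f x) (⨆ y, g y) ha0
    (ne_top_of_le_ne_top hn (iSup_le hfn)) hb0 (ne_top_of_le_ne_top hn (iSup_le hgn))
    (le_iSup f) (le_iSup g) (fun t ht => lt_iSup_iff.mp ht) (fun t ht => lt_iSup_iff.mp ht) H

/-- **One-dimensional Prékopa–Leindler inequality** (midpoint form). -/
theorem prekopa_leindler_real (f g h : ℝ → ℝ≥0∞) (hf : Measurable f) (hg : Measurable g)
    (hh : Measurable h) (H : ∀ x y, f x * g y ≤ h ((x + y) / 2) ^ 2) :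
    (∫⁻ x, f x) * (∫⁻ y, g y) ≤ (∫⁻ z, h z) ^ 2 := by
  have hsup : ∀ c : ℝ≥0∞, ⨆ n : ℕ, min c (n : ℝ≥0∞) = c := by
    intro c
    rw [← inf_iSup_eq, ENNReal.iSup_natCast]
    exact min_eq_left le_top
  have hmono : ∀ (φ : ℝ → ℝ≥0∞), Monotone fun (n : ℕ) (x : ℝ) => min (φ x) (n : ℝ≥0∞) := by
    intro φ n m hnm x
    exact min_le_min le_rfl (by exact_mod_cast hnm)
  have hlim : ∀ (φ : ℝ → ℝ≥0∞), Measurable φ →
      ∫⁻ x, φ x = ⨆ n : ℕ, ∫⁻ x, min (φ x) (n : ℝ≥0∞) := by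
    intro φ hφ
    rw [← lintegral_iSup (fun n => hφ.min measurable_const) (hmono φ)]
    exact lintegral_congr fun x => (hsup (φ x)).symm
  have hmonoI : ∀ (φ : ℝ → ℝ≥0∞), Monotone fun (n : ℕ) => ∫⁻ x, min (φ x) (n : ℝ≥0∞) := by
    intro φ n m hnm
    exact lintegral_mono (hmono φ hnm)
  have hbdd : ∀ n : ℕ, (∫⁻ x, min (f x) (n : ℝ≥0∞)) * (∫⁻ y, min (g y) (n : ℝ≥0∞))
      ≤ (∫⁻ z, h z) ^ 2 := by
    intro n
    refine pl_one_bounded (fun x => min (f x) (n : ℝ≥0∞)) (fun y => min (g y) (n : ℝ≥0∞)) h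
      (hf.min measurable_const) (hg.min measurable_const) hh (n : ℝ≥0∞) (ENNReal.natCast_ne_top n)
      (fun x => min_le_right _ _) (fun y => min_le_right _ _) (fun x y => ?_)
    exact le_trans (mul_le_mul' (min_le_left _ _) (min_le_left _ _)) (H x y)
  rw [hlim f hf, hlim g hg, ENNReal.iSup_mul]
  refine iSup_le fun n => ?_
  rw [ENNReal.mul_iSup]
  refine iSup_le fun m => ?_
  exact le_trans (mul_le_mul' (hmonoI f (le_max_left n m)) (hmonoI g (le_max_right n m)))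
    (hbdd (max n m))

end Crest.Agent.Helper26.PL
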